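import Vale.Agent.Lib.P184.FineBass

/-!
# P184: the `ℓ¹`-Bass conjecture for groups hyperbolic relative to finitely generated virtually
abelian subgroups

Let a group `Γ` act by graph automorphisms on a connected simple graph `K` such that

* `K` is hyperbolic: its graph metric satisfies Gromov's four-point condition with constant `δ`;
* `K` is fine: every edge lies on only finitely many circuits of each length;
* the stabiliser of every edge is finite, and there are finitely many orbits of edges;
* every vertex stabiliser is covered by finitely many left cosets of a finitely generated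
  commutative subgroup of `Γ`, that is, it is a finitely generated virtually abelian group.

By Bowditch's definition the first three conditions say that `Γ` is hyperbolic relative to its
infinite vertex stabilisers.  Examples: fundamental groups of complete hyperbolic manifolds of
finite volume, limit groups, free products of finitely generated virtually abelian groups.

Then the statement of the `ℓ¹`-Bass conjecture holds for `Γ`: for every idempotent matrix `e` over
the Banach group algebra of absolutely summable functions on `Γ` there is a finite set `F` of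
conjugacy classes of elements of finite order such that the Hattori-Stallings coefficient of `e`
vanishes at every conjugacy class outside `F`.
-/

namespace Vale.Agent.Results.P184.RelHypBass

open scoped BigOperators

theorem result {Γ V : Type*} [Group Γ] [MulAction Γ V] (K : SimpleGraph V)
    (hconn : K.Connected)
    (hact : ∀ (γ : Γ) (u w : V), K.Adj u w → K.Adj (γ • u) (γ • w))
    (δ : ℝ) (hδ : ∀ x y z w : V, (K.dist x z : ℝ) + K.dist y w
      ≤ max ((K.dist x y : ℝ) + K.dist z w) ((K.dist x w : ℝ) + K.dist y z) + 2 * δ)
    (hfine : ∀ (u w : V), K.Adj u w → ∀ n : ℕ,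
      {p : K.Walk u u | p.IsCycle ∧ s(u, w) ∈ p.edges ∧ p.length ≤ n}.Finite)
    (hstab : ∀ u w : V, K.Adj u w → {γ : Γ | γ • u = u ∧ γ • w = w}.Finite)
    (hcocpt : ∃ F : Finset (V × V), ∀ u w : V, K.Adj u w → ∃ γ : Γ, (γ • u, γ • w) ∈ F)
    (hva : ∀ v : V, ∃ A : Subgroup Γ, (∀ a ∈ A, ∀ b ∈ A, a * b = b * a) ∧ A.FG ∧
      ∃ T : Finset Γ, ∀ h : Γ, h • v = v → ∃ t ∈ T, t⁻¹ * h ∈ A)
    (q : ℕ) (e : Fin q → Fin q → Γ → ℂ)
    (he_sum : ∀ i j, Summable (fun x => ‖e i j x‖))
    (he_idem : ∀ i j x, ∑ l, ∑' y, e i l y * e l j (y⁻¹ * x) = e i j x) :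
    ∃ F : Finset (ConjClasses Γ), (∀ g : Γ, ConjClasses.mk g ∈ F → IsOfFinOrder g) ∧
      ∀ g : Γ, ConjClasses.mk g ∉ F →
        HasSum (fun c : {c : Γ // IsConj g c} => ∑ i, e i i c.1) 0 :=
  Vale.Agent.Lib.P184.fine_virtAbelian_bass K hconn hact δ hδ hfine hstab hcocpt hva q e
    he_sum he_idem

end Vale.Agent.Results.P184.RelHypBass
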