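import Vale.Agent.Lib.P184.FineTwisting

/-!
# P184: a second-order transfer theorem for relatively hyperbolic groups

Let a group `Γ` act by graph automorphisms on a connected simple graph `K` such that

* `K` is hyperbolic: its graph metric satisfies Gromov's four-point condition with constant `δ`;
* `K` is fine: every edge lies on only finitely many circuits of each length;
* the stabiliser of every edge is finite, and there are finitely many orbits of edges.

By Bowditch's definition this says that `Γ` is hyperbolic relative to its infinite vertex
stabilisers.  Assume that every vertex stabiliser `P`, as an abstract group, has the following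
two properties:

* every `g` in `P` of infinite order has a twisting family: finitely many pairs of real
  functions `a i`, `b i` on `P` (possibly none) and a real function `c` on `P` such that
  - for every `x` the left differences `a i (x * h) - a i h`, `b i (x * h) - b i h` and the
    second-order left difference `c (x * h) - c h - ∑ i, (a i (x * h) - a i h) * b i h` are
    bounded in `h`;
  - for every `z` commuting with `g` and every `h`, `a i (h * z) - a i h = a i z - a i 1`,
    `b i (h * z) - b i h = b i z - b i 1` and
    `c (h * z) - c h - ∑ i, a i h * (b i z - b i 1) = c z - c 1 - ∑ i, a i 1 * (b i z - b i 1)`;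
  - `a i g = a i 1`, `b i g = b i 1` and `c g ≠ c 1`;
* the elements of finite order of `P` fall into finitely many conjugacy classes of `P`.

With no pairs a twisting family is a real function `c` with bounded left differences,
equivariant on the right under the centraliser of `g`, with `c g ≠ c 1` (for instance a real
character not vanishing at `g`).  With pairs, coordinates of Heisenberg type
(`a i`, `b i` additive, `c (x * y) = c x + c y + ∑ i, a i x * b i y`, `a i g = b i g = 0`,
`c g ≠ 0`) give a twisting family; these exist for every element of infinite order of a finitely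
generated nilpotent group of class at most two which has finite order in the abelianisation.

Then the statement of the `ℓ¹`-Bass conjecture holds for `Γ`: for every idempotent matrix `e` over
the Banach group algebra of absolutely summable functions on `Γ` there is a finite set `F` of
conjugacy classes of elements of finite order such that the Hattori-Stallings coefficient of `e`
vanishes at every conjugacy class outside `F`.
-/

namespace Vale.Agent.Results.P184.RelHypTwisting

open scoped BigOperators

theorem result {Γ V : Type*} [Group Γ] [MulAction Γ V] (K : SimpleGraph V)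
    (hconn : K.Connected)
    (hact : ∀ (γ : Γ) (u w : V), K.Adj u w → K.Adj (γ • u) (γ • w))
    (δ : ℝ) (hδ : ∀ x y z w : V, (K.dist x z : ℝ) + K.dist y w
      ≤ max ((K.dist x y : ℝ) + K.dist z w) ((K.dist x w : ℝ) + K.dist y z) + 2 * δ)
    (hfine : ∀ (u w : V), K.Adj u w → ∀ n : ℕ,
      {p : K.Walk u u | p.IsCycle ∧ s(u, w) ∈ p.edges ∧ p.length ≤ n}.Finite)
    (hstab : ∀ u w : V, K.Adj u w → {γ : Γ | γ • u = u ∧ γ • w = w}.Finite)
    (hcocpt : ∃ F : Finset (V × V), ∀ u w : V, K.Adj u w → ∃ γ : Γ, (γ • u, γ • w) ∈ F)
    (hper : ∀ v : V,
      (∀ g : MulAction.stabilizer Γ v, ¬ IsOfFinOrder g →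
        ∃ (m : ℕ) (a b : Fin m → MulAction.stabilizer Γ v → ℝ)
            (c : MulAction.stabilizer Γ v → ℝ),
          (∀ x, ∃ C : ℝ, ∀ h,
            (∀ i, |a i (x * h) - a i h| ≤ C ∧ |b i (x * h) - b i h| ≤ C) ∧
              |c (x * h) - c h - ∑ i, (a i (x * h) - a i h) * b i h| ≤ C) ∧
          (∀ z, z * g = g * z → ∀ h,
            (∀ i, a i (h * z) - a i h = a i z - a i 1 ∧ b i (h * z) - b i h = b i z - b i 1) ∧
              c (h * z) - c h - ∑ i, a i h * (b i z - b i 1)
                = c z - c 1 - ∑ i, a i 1 * (b i z - b i 1)) ∧
          ((∀ i, a i g = a i 1 ∧ b i g = b i 1) ∧ c g ≠ c 1)) ∧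
      ∃ T : Finset (MulAction.stabilizer Γ v),
        ∀ h : MulAction.stabilizer Γ v, IsOfFinOrder h → ∃ t ∈ T, IsConj t h)
    (q : ℕ) (e : Fin q → Fin q → Γ → ℂ)
    (he_sum : ∀ i j, Summable (fun x => ‖e i j x‖))
    (he_idem : ∀ i j x, ∑ l, ∑' y, e i l y * e l j (y⁻¹ * x) = e i j x) :
    ∃ F : Finset (ConjClasses Γ), (∀ g : Γ, ConjClasses.mk g ∈ F → IsOfFinOrder g) ∧
      ∀ g : Γ, ConjClasses.mk g ∉ F →
        HasSum (fun c : {c : Γ // IsConj g c} => ∑ i, e i i c.1) 0 :=
  Vale.Agent.Lib.P184.fine_twisting_bass K hconn hact δ hδ hfine hstab hcocpt hper q e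
    he_sum he_idem

end Vale.Agent.Results.P184.RelHypTwisting
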